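import Vale.Agent.P358.Main

namespace Vale.Agent.Results.P358.Additivity

open Vale.Agent.P358

theorem result (γ ν : ℝ) (hγ : γ ∈ Set.Icc (0 : ℝ) 1) (hν : ν ∈ Set.Icc (0 : ℝ) 1) :
    (∀ n : ℕ, 1 ≤ n →
      IsGreatest (holevoValues (tensorPow (gad γ ν) n)) (n * chi (gad γ ν)) ∧
      chi (tensorPow (gad γ ν) n) = n * chi (gad γ ν)) ∧
    IsGreatest (holevoValues (gad γ ν)) (chi (gad γ ν)) ∧
    capacity (gad γ ν) = chi (gad γ ν) ∧
    IsGreatest (objective γ ν '' Set.Icc 0 1) (capacity (gad γ ν)) :=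
  main hγ hν

end Vale.Agent.Results.P358.Additivity
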